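import Crest.Agent.R271.Defs

/-! # Row 271, block T0: division by powers of `lam`, growth of sections -/

set_option autoImplicit false

open Set

noncomputable section

namespace Crest.Agent.R271.GR

variable {n : ℕ} {K : Type} [Field K] [Algebra ℂ K] (g : GR n K)

theorem pow_mem {i : ℕ} {s : K} (hs : s ∈ g.R i) (e : ℕ) : s ^ e ∈ g.R (e * i) := by
  induction e with
  | zero => simpa using g.one_mem
  | succ e ih =>
    rw [pow_succ, Nat.succ_mul]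
    exact g.mul_mem _ _ _ ih _ hs

theorem div_mem_aux {d d' : ℕ} {u : K} (hu : u ∈ g.R d) (hu0 : u ≠ 0) (hd' : 0 < d')
    (hdd : d' * d = g.c * g.k * g.k') (hun : g.τ / u ^ d' ∈ g.A) {N : ℕ} {s : K}
    (hs : s ∈ g.R (N * d)) : s / u ^ N ∈ g.A := by
  obtain ⟨e, rfl⟩ : ∃ e, d' = e + 1 := ⟨d' - 1, by omega⟩
  have hτ := g.τ_ne
  have h1 : s * u ^ (N * e) / g.τ ^ N ∈ g.A := by
    rw [g.mem_A]
    refine ⟨N, ?_⟩
    rw [div_mul_cancel₀ _ (pow_ne_zero _ hτ), ← hdd]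
    have := g.mul_mem _ _ _ hs _ (g.pow_mem hu (N * e))
    convert this using 2
    ring
  have h2 := g.A.mul_mem h1 (g.A.pow_mem hun N)
  convert h2 using 1
  rw [div_pow, ← pow_mul]
  field_simp
  ring

theorem div_t0_mem {N : ℕ} {s : K} (hs : s ∈ g.R (N * g.k)) : s / g.t 0 ^ N ∈ g.A :=
  g.div_mem_aux (g.t_mem 0) g.t0_ne (Nat.mul_pos g.c_pos g.k'_pos) (by ring) g.unit hs

theorem div_t'0_mem {N : ℕ} {s : K} (hs : s ∈ g.R (N * g.k')) : s / g.t' 0 ^ N ∈ g.A :=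
  g.div_mem_aux (g.t'_mem 0) g.t'0_ne (Nat.mul_pos g.c_pos g.k_pos) (by ring) g.unit' hs

theorem lam_ne : g.lam ≠ 0 := div_ne_zero (pow_ne_zero _ g.t0_ne) (pow_ne_zero _ g.t'0_ne)

theorem hat_mem {l : ℕ} {s : K} (hs : s ∈ g.R l) : s / g.lam ^ l ∈ g.A := by
  have h1 : s * g.t' 0 ^ (g.b * l) ∈ g.R (g.a * l * g.k) := by
    have := g.mul_mem _ _ _ hs _ (g.pow_mem (g.t'_mem 0) (g.b * l))
    convert this using 2
    calc g.a * l * g.k = l * (g.a * g.k) := by ring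
      _ = _ := by rw [g.bez]; ring
  have h2 := g.div_t0_mem h1
  convert h2 using 1
  have := g.t0_ne
  have := g.t'0_ne
  rw [lam, div_pow, ← pow_mul, ← pow_mul]
  field_simp

/-- `s / lam ^ l` -/
def hat {l : ℕ} (s : K) (hs : s ∈ g.R l) : g.A := ⟨s / g.lam ^ l, g.hat_mem hs⟩

theorem coe_hat {l : ℕ} (s : K) (hs : s ∈ g.R l) : (g.hat s hs : K) = s / g.lam ^ l := rfl

theorem isUnit_of_inv_mem {a : g.A} (h0 : (a : K) ≠ 0) (h : (a : K)⁻¹ ∈ g.A) : IsUnit a :=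
  IsUnit.of_mul_eq_one ⟨_, h⟩ (Subtype.ext (mul_inv_cancel₀ h0))

theorem lam_div_mem : g.lam ^ g.k / g.t 0 ∈ g.A := by
  have h1 : g.t 0 ^ (g.b * g.k') ∈ g.R (g.b * g.k * g.k') := by
    have := g.pow_mem (g.t_mem 0) (g.b * g.k')
    convert this using 2
    ring
  have h2 := g.div_t'0_mem h1
  convert h2 using 1
  have := g.t0_ne
  have := g.t'0_ne
  rw [lam, div_pow, ← pow_mul, ← pow_mul, g.bez, pow_succ]
  field_simp

theorem isUnit_hat_t0 : IsUnit (g.hat (g.t 0) (g.t_mem 0)) := by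
  refine g.isUnit_of_inv_mem (div_ne_zero g.t0_ne (pow_ne_zero _ g.lam_ne)) ?_
  rw [coe_hat, inv_div]
  exact g.lam_div_mem

theorem isUnit_hat_τ : IsUnit (g.hat g.τ g.τ_mem) := by
  refine g.isUnit_of_inv_mem (div_ne_zero g.τ_ne (pow_ne_zero _ g.lam_ne)) ?_
  rw [coe_hat, inv_div]
  have h1 : g.t 0 ^ (g.c * g.k') / g.τ ∈ g.A := by
    rw [g.mem_A]
    refine ⟨1, ?_⟩
    rw [pow_one, div_mul_cancel₀ _ g.τ_ne]
    have := g.pow_mem (g.t_mem 0) (g.c * g.k')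
    convert this using 2
    ring
  have h2 := g.A.mul_mem (g.A.pow_mem g.lam_div_mem (g.c * g.k')) h1
  convert h2 using 1
  have := g.t0_ne
  have := g.τ_ne
  rw [div_pow, ← pow_mul]
  field_simp
  ring

theorem hat_succ (i : Fin n) :
    g.hat (g.t i.succ) (g.t_mem _) = g.hat (g.t 0) (g.t_mem 0) * g.zA i := by
  refine Subtype.ext ?_
  have := g.t0_ne
  have := g.lam_ne
  show g.t i.succ / g.lam ^ g.k = g.t 0 / g.lam ^ g.k * (g.t i.succ / g.t 0)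
  field_simp

/-- growth relative to the generators -/
theorem growth_aux {M : Type} (ev : M → (g.A →ₐ[ℂ] ℂ)) (ρ : M → ℝ) (hρ : ∀ y, 0 < ρ y)
    (ht : ∀ y i, ‖ev y (g.hat (g.t i) (g.t_mem i))‖ ≤ ρ y ^ g.k) {q : ℕ} {r : Fin q → K} {dg : Fin q → ℕ}
    (hr : ∀ i, r i ∈ g.R (dg i)) {l : ℕ} {s : K}
    (hs : s ∈ Submodule.span ℂ {s | ∃ (i : Fin q) (e : Fin (n + 1) → ℕ),
      g.k * ∑ j, e j + dg i = l ∧ s = (∏ j, g.t j ^ e j) * r i}) :
    ∃ a : g.A, (a : K) = s / g.lam ^ l ∧ ∃ C : ℝ, 0 ≤ C ∧ ∀ (y : M) (μ : ℝ), 0 ≤ μ →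
      (∀ i, ‖ev y (g.hat (r i) (hr i))‖ ≤ μ * ρ y ^ dg i) → ‖ev y a‖ ≤ C * (μ * ρ y ^ l) := by
  induction hs using Submodule.span_induction with
  | mem s hs =>
    obtain ⟨i, e, hl, rfl⟩ := hs
    refine ⟨(∏ j, g.hat (g.t j) (g.t_mem j) ^ e j) * g.hat (r i) (hr i), ?_, 1, zero_le_one, ?_⟩
    · have := g.lam_ne
      simp only [MulMemClass.coe_mul, SubmonoidClass.coe_finsetProd, SubmonoidClass.coe_pow, coe_hat, div_pow,
        Finset.prod_div_distrib, ← pow_mul]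
      rw [Finset.prod_pow_eq_pow_sum, ← Finset.mul_sum, ← hl, pow_add]
      field_simp
    · intro y μ hμ h
      rw [map_mul, map_prod, norm_mul, norm_prod, one_mul, ← hl, pow_add, Finset.mul_sum,
        ← Finset.prod_pow_eq_pow_sum]
      have h1 : ∏ j, ‖ev y (g.hat (g.t j) (g.t_mem j) ^ e j)‖ ≤ ∏ j, ρ y ^ (g.k * e j) := by
        refine Finset.prod_le_prod (fun _ _ => norm_nonneg _) fun j _ => ?_
        rw [map_pow, norm_pow, pow_mul]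
        exact pow_le_pow_left₀ (norm_nonneg _) (ht y j) _
      calc _ ≤ (∏ j, ρ y ^ (g.k * e j)) * (μ * ρ y ^ dg i) :=
            mul_le_mul h1 (h i) (norm_nonneg _)
              (Finset.prod_nonneg fun _ _ => (pow_pos (hρ y) _).le)
        _ = _ := by ring
  | zero => exact ⟨0, by simp, 0, le_rfl, fun y μ _ _ => by simp⟩
  | add s s' _ _ ih ih' =>
    obtain ⟨a, ha, C, hC, h⟩ := ih
    obtain ⟨a', ha', C', hC', h'⟩ := ih'
    refine ⟨a + a', by simp [ha, ha', add_div], C + C', add_nonneg hC hC', fun y μ hμ hb => ?_⟩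
    rw [map_add, add_mul]
    exact (norm_add_le _ _).trans (add_le_add (h y μ hμ hb) (h' y μ hμ hb))
  | smul c s _ ih =>
    obtain ⟨a, ha, C, hC, h⟩ := ih
    refine ⟨c • a, by simp [ha, smul_div_assoc], ‖c‖ * C, mul_nonneg (norm_nonneg _) hC,
      fun y μ hμ hb => ?_⟩
    rw [map_smul, norm_smul, mul_assoc]
    exact mul_le_mul_of_nonneg_left (h y μ hμ hb) (norm_nonneg _)

/-- sections of `l L` are bounded by `ρ ^ l` -/
theorem growth {M : Type} (ev : M → (g.A →ₐ[ℂ] ℂ)) (ρ : M → ℝ) (hρ : ∀ y, 0 < ρ y)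
    (ht : ∀ y i, ‖ev y (g.hat (g.t i) (g.t_mem i))‖ ≤ ρ y ^ g.k) {l : ℕ} {s : K} (hs : s ∈ g.R l) :
    ∃ C : ℝ, 0 ≤ C ∧ ∀ y, ‖ev y (g.hat s hs)‖ ≤ C * ρ y ^ l := by
  obtain ⟨q, r, dg, hr, hfin⟩ := g.fin
  obtain ⟨a₁, ha₁, C₁, -, h₁⟩ := g.growth_aux ev ρ hρ ht hr (hfin 0 g.one_mem)
  have ha₁' : a₁ = 1 := Subtype.ext (by simpa using ha₁)
  choose a ha C hC h using fun i => g.growth_aux ev ρ hρ ht hr (hfin _ (g.mul_mem _ _ _ hs _ (hr i)))
  have ha' : ∀ i, a i = g.hat s hs * g.hat (r i) (hr i) := fun i => by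
    refine Subtype.ext ?_
    have := g.lam_ne
    rw [ha i, MulMemClass.coe_mul, coe_hat, coe_hat, pow_add]
    field_simp
  refine ⟨∑ i, C i, Finset.sum_nonneg fun i _ => hC i, fun y => ?_⟩
  have hne : ∃ i, ev y (g.hat (r i) (hr i)) ≠ 0 := by
    by_contra hcon
    push Not at hcon
    have := h₁ y 0 le_rfl (fun i => by simp [hcon i])
    rw [ha₁'] at this
    simp at this
    linarith
  obtain ⟨i₀, hi₀⟩ := hne
  obtain ⟨i, -, hi⟩ := Finset.exists_max_image Finset.univ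
    (fun i => ‖ev y (g.hat (r i) (hr i))‖ / ρ y ^ dg i) ⟨i₀, Finset.mem_univ _⟩
  set μ := ‖ev y (g.hat (r i) (hr i))‖ / ρ y ^ dg i with hμ
  have hμ0 : 0 < μ :=
    lt_of_lt_of_le (div_pos (norm_pos_iff.2 hi₀) (pow_pos (hρ y) _)) (hi i₀ (Finset.mem_univ _))
  have hb : ∀ j, ‖ev y (g.hat (r j) (hr j))‖ ≤ μ * ρ y ^ dg j := fun j =>
    (div_le_iff₀ (pow_pos (hρ y) _)).1 (hi j (Finset.mem_univ _))
  have h2 := h i y μ hμ0.le hb
  have h3 : ‖ev y (g.hat (r i) (hr i))‖ = μ * ρ y ^ dg i := by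
    rw [hμ, div_mul_cancel₀ _ (pow_pos (hρ y) _).ne']
  rw [ha', map_mul, norm_mul, h3, pow_add] at h2
  have h4 : 0 < μ * ρ y ^ dg i := mul_pos hμ0 (pow_pos (hρ y) _)
  have h5 : ‖ev y (g.hat s hs)‖ ≤ C i * ρ y ^ l := by
    refine le_of_mul_le_mul_right (h2.trans (le_of_eq ?_)) h4
    ring
  refine h5.trans (mul_le_mul_of_nonneg_right ?_ (pow_pos (hρ y) _).le)
  exact Finset.single_le_sum (f := C) (fun j _ => hC j) (Finset.mem_univ i)

end Crest.Agent.R271.GR
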