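import Crest.Agent.R271.T0.Hat

/-! # Row 271, block T0.  Assembly of the analytic theorem. See `Crest/Agent/R271/Blueprint.lean`, section T0. -/

set_option autoImplicit false

open MeasureTheory Filter Topology Set
open scoped ENNReal

namespace Crest.Agent.R271

/-- comparison of weighted `L²` integrals -/
theorem T0.lint_ne_top {M : Type} [MeasurableSpace M] {μ : Measure M} {f f' : M → ℝ} {C : ℝ} (hC : 0 ≤ C)
    (h : ∀ y, f y ≤ C * f' y) (hf : ∫⁻ y, ENNReal.ofReal (f' y) ∂μ ≠ ⊤) :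
    ∫⁻ y, ENNReal.ofReal (f y) ∂μ ≠ ⊤ := by
  refine ne_top_of_le_ne_top (b := ENNReal.ofReal C * ∫⁻ y, ENNReal.ofReal (f' y) ∂μ)
    (ENNReal.mul_ne_top ENNReal.ofReal_ne_top hf) ?_
  rw [← lintegral_const_mul' _ _ ENNReal.ofReal_ne_top]
  refine lintegral_mono fun y => ?_
  rw [← ENNReal.ofReal_mul hC]
  exact ENNReal.ofReal_le_ofReal (h y)

theorem stT (hG : GB) (hS : StSt) (h1 : StT1) (h2 : StT2) : StT := by
  intro n K _ _ g m hn hm
  obtain ⟨M, _, _, _, _, _, S, hz, htr⟩ := h1 n K g hn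
  obtain ⟨dm, hF⟩ := h2 n K g hn
  have lp := hG.lp n M g.A S hn
  have nad := hG.nad n M g.A S hn
  set κ : ℕ := g.c * g.k * g.k' with hκ
  have hκ0 : 0 < κ := Nat.mul_pos (Nat.mul_pos g.c_pos g.k_pos) g.k'_pos
  have hk0 : (0 : ℝ) < g.k := by exact_mod_cast g.k_pos
  set T₀ : g.A := g.hat (g.t 0) (g.t_mem 0) with hT₀
  set τ : g.A := g.hat g.τ g.τ_mem with hτ
  have sq_nonneg' : ∀ a y, 0 ≤ S.sq a y := fun a y => sq_nonneg _
  have sq_pos : ∀ a : g.A, IsUnit a → ∀ y, 0 < S.sq a y := fun a ha y =>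
    pow_pos (norm_pos_iff.2 (ha.map (S.ev y)).ne_zero) 2
  have sq_mul : ∀ a b y, S.sq (a * b) y = S.sq a y * S.sq b y := fun a b y => by
    simp only [Aff.sq, map_mul, norm_mul, mul_pow]
  have sq_pow : ∀ a (j : ℕ) y, S.sq (a ^ j) y = S.sq a y ^ j := fun a j y => by
    simp only [Aff.sq, map_pow, norm_pow, ← pow_mul, mul_comm]
  have hT₀p := sq_pos T₀ g.isUnit_hat_t0
  have hτp := sq_pos τ g.isUnit_hat_τ
  set Z : M → ℝ := fun y => 1 + ∑ i, S.sq (S.z i) y with hZ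
  have hZ1 : ∀ y, 1 ≤ Z y := fun y =>
    le_add_of_nonneg_right (Finset.sum_nonneg fun i _ => sq_nonneg' _ _)
  have hZp : ∀ y, 0 < Z y := fun y => one_pos.trans_le (hZ1 y)
  set ℓ : M → ℝ := fun y => (Real.log (S.sq T₀ y) + Real.log (Z y)) / g.k with hℓ
  have hW : ∀ y, Real.exp (g.k * ℓ y) = S.sq T₀ y * Z y := fun y => by
    rw [hℓ]
    simp only
    rw [mul_div_cancel₀ _ hk0.ne', Real.exp_add, Real.exp_log (hT₀p y), Real.exp_log (hZp y)]
  -- growth of sections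
  have growth : ∀ (l : ℕ) (s : K) (hs : s ∈ g.R l), ∃ C : ℝ, 0 ≤ C ∧
      ∀ y, S.sq (g.hat s hs) y ≤ C * Real.exp (l * ℓ y) := by
    intro l s hs
    have hρ : ∀ (j : ℕ) y, (Real.exp (ℓ y / 2) ^ j) ^ 2 = Real.exp (j * ℓ y) := fun j y => by
      rw [← pow_mul, ← Real.exp_nat_mul]
      congr 1
      push_cast
      ring
    obtain ⟨C, hC, h⟩ := g.growth S.ev (fun y => Real.exp (ℓ y / 2)) (fun y => Real.exp_pos _) (by
      intro y i
      refine (pow_le_pow_iff_left₀ (norm_nonneg _) (by positivity) two_ne_zero).1 ?_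
      rw [hρ, hW]
      change S.sq _ y ≤ _
      refine Fin.cases ?_ (fun i => ?_) i
      · exact le_mul_of_one_le_right (hT₀p y).le (hZ1 y)
      · rw [g.hat_succ, sq_mul, ← hz]
        refine mul_le_mul_of_nonneg_left ?_ (hT₀p y).le
        have := Finset.single_le_sum (f := fun i => S.sq (S.z i) y) (fun j _ => sq_nonneg' _ _)
          (Finset.mem_univ i)
        simp only [hZ]
        linarith) hs
    refine ⟨C ^ 2, sq_nonneg _, fun y => ?_⟩
    rw [← hρ, ← mul_pow]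
    exact pow_le_pow_left₀ (norm_nonneg _) (h y) 2
  -- the setup
  let S' : Setup n M g.A :=
    { S with
      F := g.F
      κ := κ
      κ_pos := by exact_mod_cast hκ0
      dm := dm
      filt := by rw [hz]; exact hF
      G := fun y => Real.exp (κ * ℓ y - Real.log (S.sq τ y))
      G_pos := fun y => Real.exp_pos _
      bound := by
        intro j a ha
        have ha' : (a : K) * g.τ ^ j ∈ g.R (j * κ) := ha
        obtain ⟨C, -, h⟩ := growth _ _ ha'
        refine ⟨C, fun y => ?_⟩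
        have e : g.hat _ ha' = a * τ ^ j := by
          refine Subtype.ext ?_
          rw [hτ, MulMemClass.coe_mul, SubmonoidClass.coe_pow, GR.coe_hat, GR.coe_hat, div_pow, ← pow_mul,
            mul_comm j κ, mul_div_assoc]
        have h' := h y
        rw [e, sq_mul, sq_pow] at h'
        rw [Real.exp_sub, Real.exp_log (hτp y), div_pow, ← mul_div_assoc, le_div_iff₀ (pow_pos (hτp y) _),
          ← Real.exp_nat_mul]
        refine h'.trans (le_of_eq ?_)
        congr 2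
        push_cast
        ring }
  obtain ⟨x, hx⟩ := S.ev_bij.2 g.x
  obtain ⟨g₀, t, C, hg₀, ht0, htκ, hb, hsing, hiso⟩ := hS n M g.A S' x hn
  have hb' : ∀ y, g₀ y ≤ C * Real.exp (κ * ℓ y - Real.log (S.sq τ y)) ^ t := hb
  have htκ' : t * (κ : ℝ) < n + 1 := htκ
  have hmt : 0 < (m : ℝ) - t * κ := by
    have : ((n + 1 : ℕ) : ℝ) ≤ m := by exact_mod_cast hm
    push_cast at this
    linarith
  set C' : ℝ := max C 1 with hC'
  have hC'0 : 0 < C' := lt_of_lt_of_le one_pos (le_max_right _ _)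
  have hcsq : ∀ a, Continuous (S.sq a) := fun a => (lp.sq a).1
  have hZc : Continuous Z := continuous_const.add (continuous_finsetSum _ fun i _ => hcsq _)
  have hℓc : Continuous ℓ :=
    (((hcsq T₀).log fun y => (hT₀p y).ne').add (hZc.log fun y => (hZp y).ne')).div_const _
  obtain ⟨F, hFh, hFx, hFi⟩ := nad g₀
    (fun y => ((m - t * κ) / g.k * Real.log (Z y) + (m - t * κ) / g.k * Real.log (S.sq T₀ y)) +
      t * Real.log (S.sq τ y))
    (fun y => C' * Real.exp (m * ℓ y)) x hg₀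
    (lp.sp_add _ _ (lp.sp_add _ _ (lp.sp_mul _ _ lp.log_z (div_pos hmt hk0))
      (lp.p_mul _ _ (lp.log_unit _ g.isUnit_hat_t0) (div_pos hmt hk0).le))
      (lp.p_mul _ _ (lp.log_unit _ g.isUnit_hat_τ) ht0))
    (continuous_const.mul (continuous_const.mul hℓc).rexp) (fun y => by positivity)
    (fun y => by
      refine (mul_le_mul_of_nonneg_right ((hb' y).trans (mul_le_mul_of_nonneg_right (le_max_left C 1)
        (Real.rpow_nonneg (Real.exp_pos _).le _))) (Real.exp_pos _).le).trans (le_of_eq ?_)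
      rw [← Real.exp_mul, mul_assoc, ← Real.exp_add]
      congr 2
      simp only [hℓ]
      field_simp
      ring)
    hsing hiso
  -- the weight has polynomial growth
  have hZm : S.Mod Z := by
    refine lp.mod_add _ _ (lp.mod_const 1) ?_
    have : ∀ s : Finset (Fin n), S.Mod fun y => ∑ i ∈ s, S.sq (S.z i) y := by
      intro s
      induction s using Finset.induction_on with
      | empty => simpa using lp.mod_const 0
      | insert i s hi ih =>
        simp only [Finset.sum_insert hi]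
        exact lp.mod_add _ _ (lp.mod_sq _) ih
    exact this _
  obtain ⟨C₁, K₁, hK₁⟩ := lp.mod_rpow _ ((m : ℝ) / g.k) (fun y => (mul_pos (hT₀p y) (hZp y)).le)
    (by positivity) (lp.mod_mul _ _ (fun y => (hT₀p y).le) (fun y => (hZp y).le) (lp.mod_sq T₀) hZm)
  have hK₁' : ∀ y, Real.exp (m * ℓ y) ≤ C₁ * (1 + ∑ i, S.sq (S.w i) y) ^ K₁ := fun y => by
    refine le_trans (le_of_eq ?_) (hK₁ y)
    simp only
    rw [← hW, ← Real.exp_mul]
    congr 1
    field_simp
  have hWt : ∀ y, 0 < (1 + ∑ i, S.sq (S.w i) y) ^ K₁ := fun y =>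
    Real.rpow_pos_of_pos (add_pos_of_pos_of_nonneg one_pos (Finset.sum_nonneg fun i _ => sq_nonneg' _ _)) _
  have hC₁ : 0 < C₁ := (mul_pos_iff_of_pos_right (hWt x)).1 ((Real.exp_pos _).trans_le (hK₁' x))
  obtain ⟨f, hf⟩ := S.alg F K₁ hFh (by
    refine T0.lint_ne_top (C := C' * C₁) (by positivity) (fun y => ?_) hFi
    change ‖F y‖ ^ 2 / (1 + ∑ i, S.sq (S.w i) y) ^ K₁ ≤ _
    have h3 := hWt y
    have h4 := Real.exp_pos (m * ℓ y)
    rw [div_le_iff₀ h3]
    calc ‖F y‖ ^ 2 = (C' * (‖F y‖ ^ 2 / (C' * Real.exp (m * ℓ y)))) * Real.exp (m * ℓ y) := by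
          field_simp
      _ ≤ (C' * (‖F y‖ ^ 2 / (C' * Real.exp (m * ℓ y)))) * (C₁ * (1 + ∑ i, S.sq (S.w i) y) ^ K₁) :=
          mul_le_mul_of_nonneg_left (hK₁' y) (by positivity)
      _ = _ := by ring)
  refine ⟨f, by rw [← hx, ← hf]; exact hFx, fun l c hl s hs => ?_⟩
  obtain ⟨u, hu⟩ := g.isUnit_hat_t0
  obtain ⟨C₂, hC₂, h₂⟩ := growth l s hs
  obtain ⟨P, hP, hP'⟩ := htr (g.hat s hs * f * ((u⁻¹ : g.Aˣ) : g.A) ^ c) c (by
    refine T0.lint_ne_top (C := C₂ * C') (by positivity) (fun y => ?_) hFi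
    have h3 : S.sq ((u⁻¹ : g.Aˣ) : g.A) y * S.sq T₀ y = 1 := by
      rw [← sq_mul, hT₀, ← hu, Units.inv_mul]
      simp [Aff.sq]
    have h4 : S.sq ((u⁻¹ : g.Aˣ) : g.A) y = (S.sq T₀ y)⁻¹ := eq_inv_of_mul_eq_one_left h3
    have h5 : (S.sq T₀ y * Z y) ^ c = Real.exp (l * ℓ y) * Real.exp (m * ℓ y) := by
      rw [← hW, ← Real.exp_nat_mul, ← Real.exp_add]
      congr 1
      have : (l : ℝ) + m = c * g.k := by exact_mod_cast hl
      rw [← add_mul, this]
      ring
    have h6 : S.sq f y = ‖F y‖ ^ 2 := by rw [hf]; rfl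
    have h7 := hT₀p y
    have h8 := hZp y
    have h9 := Real.exp_pos (l * ℓ y)
    have h10 := Real.exp_pos (m * ℓ y)
    rw [sq_mul, sq_mul, sq_pow, h4, h6]
    change _ / Z y ^ c ≤ _
    calc S.sq (g.hat s hs) y * ‖F y‖ ^ 2 * (S.sq T₀ y)⁻¹ ^ c / Z y ^ c
        = S.sq (g.hat s hs) y * (‖F y‖ ^ 2 / (S.sq T₀ y * Z y) ^ c) := by
          rw [mul_pow, inv_pow]
          field_simp
      _ ≤ C₂ * Real.exp (l * ℓ y) * (‖F y‖ ^ 2 / (S.sq T₀ y * Z y) ^ c) :=
          mul_le_mul_of_nonneg_right (h₂ y) (by positivity)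
      _ = _ := by
          rw [h5]
          field_simp)
  refine ⟨P, hP, ?_⟩
  rw [← hP']
  congr 2
  have hu' : (((u⁻¹ : g.Aˣ) : g.A) : K) = g.lam ^ g.k / g.t 0 := by
    have h3 : (((u⁻¹ : g.Aˣ) : g.A) : K) * (g.t 0 / g.lam ^ g.k) = 1 := by
      rw [← g.coe_hat _ (g.t_mem 0), ← hu, ← MulMemClass.coe_mul, Units.inv_mul]
      rfl
    rw [eq_inv_of_mul_eq_one_left h3, inv_div]
  have := g.lam_ne
  have := g.t0_ne
  rw [MulMemClass.coe_mul, MulMemClass.coe_mul, SubmonoidClass.coe_pow, hu', GR.coe_hat, div_pow, ← pow_mul,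
    mul_comm g.k c, ← hl, pow_add]
  field_simp

end Crest.Agent.R271
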